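import Vale.Agent.P072.Main

open Vale.Agent.P072

/-- The permanence conjecture: every weakly reversible mass-action system with positive rate
constants is permanent on every positive stoichiometric class. -/
theorem Vale.Agent.Results.P072.Permanence.result (d : ℕ) (N : Network d)
    (hN : N.WeaklyReversible) (k : (Fin d → ℕ) × (Fin d → ℕ) → ℝ) (hk : ∀ r ∈ N.R, 0 < k r)
    (c : Fin d → ℝ) (_hc : ∀ i, 0 < c i) :
    PermanentOn (N.field k) (N.posClass c) :=
  permanent_const hN hk c
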