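import Vale.Agent.P072.Main

open Vale.Agent.P072 Set MeasureTheory

/-- The permanence conjecture, for constant rates and, uniformly, for measurable time-dependent
rates with values in `[ε, ε⁻¹]`. -/
theorem Vale.Agent.Results.P072.Strong.result (d : ℕ) (N : Network d)
    (hN : N.WeaklyReversible) (c : Fin d → ℝ) (_hc : ∀ i, 0 < c i) :
    (∀ k : (Fin d → ℕ) × (Fin d → ℕ) → ℝ, (∀ r ∈ N.R, 0 < k r) →
      PermanentOn (N.field k) (N.posClass c)) ∧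
    (∀ ε : ℝ, 0 < ε → ∃ K : Set (Fin d → ℝ), IsCompact K ∧ K ⊆ N.posClass c ∧
      ∀ k : ℝ → (Fin d → ℕ) × (Fin d → ℕ) → ℝ,
        (∀ r ∈ N.R, AEMeasurable (fun t => k t r) (volume.restrict (Ici 0))) →
        (∀ t ≥ 0, ∀ r ∈ N.R, ε ≤ k t r ∧ k t r ≤ ε⁻¹) →
        (∀ x₀ ∈ N.posClass c, ∃ x : ℝ → Fin d → ℝ, x 0 = x₀ ∧
          IsIntSol (fun t => N.field (k t)) x (Ici 0) ∧ (∀ t ≥ 0, ∀ i, 0 < x t i) ∧
          ∀ T > 0, ∀ z : ℝ → Fin d → ℝ, z 0 = x₀ →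
            IsIntSol (fun t => N.field (k t)) z (Ico 0 T) → ∀ t ∈ Ico 0 T, z t = x t) ∧
        ∀ x : ℝ → Fin d → ℝ, x 0 ∈ N.posClass c →
          IsIntSol (fun t => N.field (k t)) x (Ici 0) → ∃ T : ℝ, ∀ t ≥ T, x t ∈ K) := by
  refine ⟨fun k hk => permanent_const hN hk c, fun ε hε => ?_⟩
  obtain ⟨K, h1, h2, h3⟩ := permanent_var hN hε c
  exact ⟨K, h1, h2, fun k hm hk =>
    ⟨fun x₀ hx₀ => exists_global hN hε hm hk hx₀.2, h3 k hk⟩⟩
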